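import Mathlib

/-!
Definitions for P064 (the second Kahn-Kalai conjecture): the random graph `G(n,p)`, the expected
number of copies, the threshold `pc`, the expectation threshold `pE` and its modification `pEt`.
-/

namespace Vale.Agent.P064

open SimpleGraph

/-- The probability that the random graph `G(n,p)` is equal to `G`. -/
noncomputable def gnpProb (n : ℕ) (p : ℝ) (G : SimpleGraph (Fin n)) : ℝ :=
  p ^ G.edgeSet.ncard * (1 - p) ^ (n.choose 2 - G.edgeSet.ncard)

/-- The expected number of copies of `F` in `G(n,p)`, a copy being a subgraph isomorphic to `F`. -/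
noncomputable def expCopies (n : ℕ) (p : ℝ) {W : Type*} (F : SimpleGraph W) : ℝ :=
  ∑ G : SimpleGraph (Fin n), gnpProb n p G * (G.copyCount F : ℝ)

open Classical in
/-- The probability that `G(n,p)` contains a copy of `H`. -/
noncomputable def probContains (n : ℕ) (p : ℝ) {V : Type*} (H : SimpleGraph V) : ℝ :=
  ∑ G : SimpleGraph (Fin n), if 0 < G.copyCount H then gnpProb n p G else 0

/-- The threshold `p_c(n,H)`. -/
noncomputable def pc (n : ℕ) {V : Type*} (H : SimpleGraph V) : ℝ :=
  sInf {p : ℝ | 0 ≤ p ∧ p ≤ 1 ∧ 1 / 2 ≤ probContains n p H}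

/-- The expectation threshold `p_E(n,H)`. -/
noncomputable def pE (n : ℕ) {V : Type*} (H : SimpleGraph V) : ℝ :=
  sInf {p : ℝ | 0 ≤ p ∧ p ≤ 1 ∧ ∀ F : H.Subgraph, 1 / 2 ≤ expCopies n p F.coe}

/-- The modified expectation threshold `p̃_E(n,H)`. -/
noncomputable def pEt (n : ℕ) {V : Type*} [Fintype V] (H : SimpleGraph V) : ℝ :=
  sInf {p : ℝ | 0 ≤ p ∧ p ≤ 1 ∧
    ∀ F : H.Subgraph, (H.copyCount F.coe : ℝ) / 2 ≤ expCopies n p F.coe}

/-- Expectation of `f` over a `p`-random subset of `X`. -/
noncomputable def ex {X : Type*} [Fintype X] (p : ℝ) (f : Finset X → ℝ) : ℝ :=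
  ∑ W : Finset X, p ^ W.card * (1 - p) ^ (Fintype.card X - W.card) * f W

end Vale.Agent.P064
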