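import Vale.Agent.Lib.P064.Defs

namespace Vale.Agent.P064

open scoped Pointwise
open Finset

/-- number of group elements carrying `S` into `H` -/
noncomputable def aCount (G : Type*) {X : Type*} [Group G] [Fintype G] [DecidableEq X]
    [MulAction G X] (H S : Finset X) : ℕ :=
  (Finset.univ.filter (fun g : G => g • S ⊆ H)).card

section

variable {G X : Type*} [Group G] [Fintype G] [DecidableEq X] [MulAction G X]

theorem aCount_empty (H : Finset X) : aCount G H ∅ = Fintype.card G := by
  simp [aCount]

theorem aCount_le_card (H S : Finset X) : aCount G H S ≤ Fintype.card G := by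
  unfold aCount
  exact Finset.card_le_univ _

theorem aCount_smul (H S : Finset X) (k : G) : aCount G H (k • S) = aCount G H S := by
  unfold aCount
  apply Finset.card_bij' (fun g _ => g * k) (fun g _ => g * k⁻¹)
  · intro g hg
    simp only [mem_filter, mem_univ, true_and] at hg ⊢
    rwa [← smul_smul g k S] 
  · intro g hg
    simp only [mem_filter, mem_univ, true_and] at hg ⊢
    rw [smul_smul]
    simpa using hg
  · intro g hg; simp
  · intro g hg; simp

/-- the product identity. -/
theorem aCount_mul (H U F : Finset X) :
    aCount G H U * aCount G H F = ∑ k : G, aCount G H (U ∪ k • F) := by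
  unfold aCount
  rw [← Finset.card_product, ← Finset.card_sigma]
  apply Finset.card_bij' (fun x _ => (⟨x.1⁻¹ * x.2, x.1⟩ : Σ _ : G, G))
    (fun y _ => (y.2, y.2 * y.1))
  · rintro ⟨g, g'⟩ hg
    simp only [mem_product, mem_filter, mem_univ, true_and, mem_sigma] at hg ⊢
    rw [Finset.smul_finset_union, smul_smul, mul_inv_cancel_left]
    exact Finset.union_subset hg.1 hg.2
  · rintro ⟨k, g⟩ hg
    simp only [mem_product, mem_filter, mem_univ, true_and, mem_sigma] at hg ⊢
    rw [Finset.smul_finset_union, smul_smul] at hg
    exact ⟨Finset.union_subset_left hg, Finset.union_subset_right hg⟩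
  · rintro ⟨g, g'⟩ hg
    simp
  · rintro ⟨k, g⟩ hg
    simp

/-- `a_H(U) ≤ 2^|H| |Stab U|`. -/
theorem aCount_le_stab (H U : Finset X) :
    aCount G H U ≤ 2 ^ H.card * (Finset.univ.filter (fun g : G => g • U = U)).card := by
  classical
  unfold aCount
  have h1 : (Finset.univ.filter (fun g : G => g • U ⊆ H)) =
      H.powerset.biUnion (fun T => Finset.univ.filter (fun g : G => g • U = T)) := by
    ext g
    simp
  rw [h1]
  refine (Finset.card_biUnion_le).trans ?_
  rw [← Finset.card_powerset, ← smul_eq_mul]
  apply Finset.sum_le_card_nsmul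
  intro T _
  by_cases hT : ∃ g₀ : G, g₀ • U = T
  · obtain ⟨g₀, hg₀⟩ := hT
    apply Finset.card_le_card_of_injOn (fun g => g₀⁻¹ * g)
    · intro g hg
      simp only [coe_filter, mem_univ, true_and, Set.mem_ofPred_eq] at hg ⊢
      rw [← smul_smul, hg, ← hg₀, inv_smul_smul]
    · intro a _ b _ hab
      simpa using hab
  · have : (Finset.univ.filter (fun g : G => g • U = T)) = ∅ := by
      ext g
      simp only [mem_filter, mem_univ, true_and, notMem_empty, iff_false]
      exact fun h => hT ⟨g, h⟩
    rw [this]
    simp

theorem aCount_pos_of_subset {H U : Finset X} (h : U ⊆ H) : 0 < aCount G H U := by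
  unfold aCount
  apply Finset.card_pos.2
  exact ⟨1, by simpa using h⟩

end

theorem size_half (m : ℕ) (hm : 0 < m) : Nat.size (m / 2) + 1 ≤ Nat.size m := by
  rw [Nat.succ_le_iff, Nat.lt_size]
  rcases Nat.eq_zero_or_pos (Nat.size (m / 2)) with h | h
  · rw [h, pow_zero]; exact hm
  · obtain ⟨s, hs⟩ := Nat.exists_eq_succ_of_ne_zero h.ne'
    have h1 : s < Nat.size (m / 2) := by omega
    rw [Nat.lt_size] at h1
    rw [hs, Nat.succ_eq_add_one, pow_succ]
    omega

theorem spread_aux {G X : Type*} [Group G] [Fintype G] [DecidableEq X] [MulAction G X]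
    (q : ℝ) (hq : 0 < q) (N : ℕ) : ∀ (H : Finset X), H.card = N →
    (∀ S ⊆ H, ((Finset.univ.filter (fun g : G => g • S = S)).card : ℝ)
      ≤ 2 * Fintype.card G * q ^ S.card) → ∀ (F : Finset X),
    (aCount G H F : ℝ) ≤ Fintype.card G * (16 * (Nat.size H.card : ℝ) * q) ^ F.card := by
  induction N using Nat.strong_induction_on with
  | _ N IH =>
  intro H hHN hA F
  have hGpos : (0 : ℝ) < Fintype.card G := by exact_mod_cast Fintype.card_pos
  rcases Nat.eq_zero_or_pos H.card with h0 | hpos
  · -- `H = ∅`
    have hH : H = ∅ := Finset.card_eq_zero.1 h0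
    subst hH
    rcases Finset.eq_empty_or_nonempty F with hF | hF
    · subst hF
      simp [aCount_empty]
    · have : aCount G (∅ : Finset X) F = 0 := by
        unfold aCount
        rw [Finset.card_eq_zero]
        ext g
        simp [Finset.nonempty_iff_ne_empty.1 hF]
      rw [this]
      simp only [Nat.cast_zero]
      positivity
  · -- choose the maximizer
    obtain ⟨U, hUH, hUmax⟩ := Finset.exists_max_image H.powerset
      (fun U => (aCount G H U : ℝ) * ((16 * q) ^ U.card)⁻¹) ⟨∅, Finset.empty_mem_powerset _⟩
    rw [Finset.mem_powerset] at hUH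
    have hq16 : 0 < 16 * q := by positivity
    have key : ∀ V : Finset X,
        (aCount G H V : ℝ) * (16 * q) ^ U.card ≤ aCount G H U * (16 * q) ^ V.card := by
      intro V
      rcases Nat.eq_zero_or_pos (aCount G H V) with hV | hV
      · rw [hV]
        simp only [Nat.cast_zero, zero_mul]
        positivity
      · obtain ⟨g, hg⟩ := Finset.card_pos.1 hV
        simp only [mem_filter, mem_univ, true_and] at hg
        have h1 := hUmax (g • V) (Finset.mem_powerset.2 hg)
        rw [aCount_smul, Finset.card_smul_finset] at h1
        rw [← div_eq_mul_inv, ← div_eq_mul_inv, div_le_div_iff₀ (by positivity) (by positivity)] at h1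
        exact h1
    -- size of `U`
    have hUsize : U.card ≤ H.card / 2 := by
      have h1 := key ∅
      rw [aCount_empty] at h1
      simp only [card_empty, pow_zero, mul_one] at h1
      have h2 : (aCount G H U : ℝ) ≤ 2 ^ H.card * (2 * Fintype.card G * q ^ U.card) := by
        have h3 : (aCount G H U : ℝ) ≤
            2 ^ H.card * ((Finset.univ.filter (fun g : G => g • U = U)).card : ℝ) := by
          exact_mod_cast aCount_le_stab (G := G) H U
        refine h3.trans ?_
        exact mul_le_mul_of_nonneg_left (hA U hUH) (by positivity)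
      have h4 : (Fintype.card G : ℝ) * q ^ U.card * 16 ^ U.card ≤
          Fintype.card G * q ^ U.card * 2 ^ (H.card + 1) := by
        calc (Fintype.card G : ℝ) * q ^ U.card * 16 ^ U.card
            = Fintype.card G * (16 * q) ^ U.card := by rw [mul_pow]; ring
          _ ≤ 2 ^ H.card * (2 * Fintype.card G * q ^ U.card) := h1.trans h2
          _ = Fintype.card G * q ^ U.card * 2 ^ (H.card + 1) := by rw [pow_succ]; ring
      have h5 : (16 : ℝ) ^ U.card ≤ 2 ^ (H.card + 1) :=
        le_of_mul_le_mul_left h4 (by positivity)
      have h6 : (2 : ℝ) ^ (4 * U.card) ≤ 2 ^ (H.card + 1) := by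
        rw [pow_mul]; norm_num at h5 ⊢; exact h5
      have h7 : 4 * U.card ≤ H.card + 1 := by
        exact (pow_le_pow_iff_right₀ (by norm_num : (1 : ℝ) < 2)).1 h6
      omega
    have hUlt : U.card < N := by
      have : H.card / 2 < H.card := Nat.div_lt_self hpos (by norm_num)
      omega
    have hIH := IH U.card hUlt U rfl (fun S hS => hA S (hS.trans hUH))
    have hUpos : (0 : ℝ) < aCount G H U := by exact_mod_cast aCount_pos_of_subset hUH
    -- the product identity
    have hprod : (aCount G H F : ℝ) ≤ ∑ k : G, (16 * q) ^ (k • F \ U).card := by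
      have h1 : (aCount G H U : ℝ) * aCount G H F = ∑ k : G, (aCount G H (U ∪ k • F) : ℝ) := by
        exact_mod_cast aCount_mul (G := G) H U F
      have h2 : (aCount G H U : ℝ) * aCount G H F ≤
          aCount G H U * ∑ k : G, (16 * q) ^ (k • F \ U).card := by
        rw [h1, Finset.mul_sum]
        apply Finset.sum_le_sum
        intro k _
        have h3 := key (U ∪ k • F)
        have h4 : (U ∪ k • F).card = U.card + (k • F \ U).card := by
          rw [← Finset.union_sdiff_self_eq_union, Finset.card_union_of_disjoint]
          exact Finset.disjoint_sdiff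
        rw [h4, pow_add] at h3
        have h5 : (aCount G H (U ∪ k • F) : ℝ) * (16 * q) ^ U.card ≤
            (aCount G H U * (16 * q) ^ (k • F \ U).card) * (16 * q) ^ U.card := by
          calc _ ≤ _ := h3
            _ = _ := by ring
        exact le_of_mul_le_mul_right h5 (by positivity)
      exact le_of_mul_le_mul_left h2 hUpos
    -- regroup
    have hgroup : ∑ k : G, (16 * q) ^ (k • F \ U).card ≤
        ∑ K ∈ F.powerset, (aCount G U K : ℝ) * (16 * q) ^ (F.card - K.card) := by
      have h1 : ∀ k : G, (16 * q) ^ (k • F \ U).card ≤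
          ∑ K ∈ F.powerset, if k • K ⊆ U then (16 * q) ^ (F.card - K.card) else 0 := by
        intro k
        set K₀ : Finset X := F.filter (fun x => k • x ∈ U) with hK₀
        have h2 : K₀ ∈ F.powerset := Finset.mem_powerset.2 (Finset.filter_subset _ _)
        have h3 : k • K₀ ⊆ U := by
          intro y hy
          obtain ⟨x, hx, rfl⟩ := Finset.mem_smul_finset.1 hy
          exact (Finset.mem_filter.1 hx).2
        have h4 : (k • F \ U).card = F.card - K₀.card := by
          have h5 : k • F \ U = k • (F \ K₀) := by
            ext y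
            simp only [mem_sdiff, Finset.mem_smul_finset]
            constructor
            · rintro ⟨⟨x, hx, rfl⟩, hy⟩
              exact ⟨x, ⟨hx, fun h => hy (Finset.mem_filter.1 h).2⟩, rfl⟩
            · rintro ⟨x, ⟨hx, hx'⟩, rfl⟩
              exact ⟨⟨x, hx, rfl⟩, fun h => hx' (Finset.mem_filter.2 ⟨hx, h⟩)⟩
          rw [h5, Finset.card_smul_finset, Finset.card_sdiff_of_subset (Finset.filter_subset _ _)]
        have h6 : (16 * q) ^ (k • F \ U).card =
            (if k • K₀ ⊆ U then (16 * q) ^ (F.card - K₀.card) else 0) := by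
          rw [if_pos h3, h4]
        rw [h6]
        apply Finset.single_le_sum
          (f := fun K => if k • K ⊆ U then (16 * q) ^ (F.card - K.card) else 0) _ h2
        intro K _
        split_ifs
        · positivity
        · exact le_rfl
      refine (Finset.sum_le_sum (fun k _ => h1 k)).trans ?_
      rw [Finset.sum_comm]
      apply Finset.sum_le_sum
      intro K _
      rw [← Finset.sum_filter, Finset.sum_const, nsmul_eq_mul]
      unfold aCount
      exact le_rfl
    -- sum up
    have hsize : Nat.size U.card + 1 ≤ Nat.size H.card := by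
      have h1 : Nat.size U.card ≤ Nat.size (H.card / 2) := Nat.size_le_size hUsize
      have h2 := size_half H.card hpos
      omega
    have hsizeR : (Nat.size U.card : ℝ) + 1 ≤ Nat.size H.card := by exact_mod_cast hsize
    calc (aCount G H F : ℝ) ≤ ∑ k : G, (16 * q) ^ (k • F \ U).card := hprod
      _ ≤ ∑ K ∈ F.powerset, (aCount G U K : ℝ) * (16 * q) ^ (F.card - K.card) := hgroup
      _ ≤ ∑ K ∈ F.powerset, (Fintype.card G : ℝ) *
          ((16 * (Nat.size U.card : ℝ) * q) ^ K.card * (16 * q) ^ (F.card - K.card)) := by
        apply Finset.sum_le_sum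
        intro K _
        rw [← mul_assoc]
        exact mul_le_mul_of_nonneg_right (hIH K) (by positivity)
      _ = Fintype.card G * (16 * (Nat.size U.card : ℝ) * q + 16 * q) ^ F.card := by
        rw [← Finset.mul_sum, Finset.sum_pow_mul_eq_add_pow]
      _ ≤ Fintype.card G * (16 * (Nat.size H.card : ℝ) * q) ^ F.card := by
        apply mul_le_mul_of_nonneg_left _ hGpos.le
        apply pow_le_pow_left₀ (by positivity)
        nlinarith

theorem spread_main {G X : Type*} [Group G] [Fintype G] [DecidableEq X] [MulAction G X]
    (q : ℝ) (hq : 0 < q) (H : Finset X)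
    (hA : ∀ S ⊆ H, ((Finset.univ.filter (fun g : G => g • S = S)).card : ℝ)
      ≤ 2 * Fintype.card G * q ^ S.card) (F : Finset X) :
    (aCount G H F : ℝ) ≤ Fintype.card G * (16 * (Nat.size H.card : ℝ) * q) ^ F.card :=
  spread_aux q hq H.card H rfl hA F

end Vale.Agent.P064
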