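import Vale.Agent.Lib.P064.Measure
import Vale.Agent.Lib.P064.Spread

namespace Vale.Agent.P064

open Finset

variable {X : Type*} [Fintype X] [DecidableEq X]

omit [DecidableEq X] in
theorem ex_const (p c : ℝ) : ex (X := X) p (fun _ => c) = c := by
  have h := ex_one (X := X) p
  unfold ex at h ⊢
  simp only [mul_one] at h
  rw [← Finset.sum_mul, h, one_mul]

omit [DecidableEq X] in
theorem ex_add (p : ℝ) (f g : Finset X → ℝ) : ex p (fun W => f W + g W) = ex p f + ex p g := by
  unfold ex
  rw [← Finset.sum_add_distrib]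
  apply Finset.sum_congr rfl
  intro W _
  ring

omit [DecidableEq X] in
theorem ex_const_mul (p c : ℝ) (f : Finset X → ℝ) : ex p (fun W => c * f W) = c * ex p f := by
  unfold ex
  rw [Finset.mul_sum]
  apply Finset.sum_congr rfl
  intro W _
  ring

theorem size_half_eq (m : ℕ) (hm : 0 < m) : Nat.size m = Nat.size (m / 2) + 1 := by
  apply le_antisymm _ (size_half m hm)
  rw [Nat.size_le, pow_succ]
  have h : m / 2 < 2 ^ Nat.size (m / 2) := Nat.lt_size_self (m / 2)
  omega

open Classical in
theorem key_est {ι : Type*} (J : Finset ι) (A : ι → Finset X) (k : ℕ) (M r : ℝ) (hM : 0 ≤ M)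
    (hr : 0 < r) (hr1 : 1024 * r ≤ 1) (hk : ∀ i ∈ J, (A i).card ≤ k)
    (hspread : ∀ S : Finset X, ((J.filter (fun i => S ⊆ A i)).card : ℝ) ≤ M * r ^ S.card)
    (T : Finset X → ι → Finset X)
    (hT1 : ∀ W, ∀ i ∈ J, ∃ j ∈ J, A j ⊆ W ∪ A i ∧ T W i = A j \ W)
    (hT2 : ∀ W, ∀ i ∈ J, ∀ j ∈ J, A j ⊆ W ∪ A i → (T W i).card ≤ (A j \ W).card) :
    ex (1024 * r) (fun W => ((J.filter (fun i => k < 2 * (T W i).card)).card : ℝ)) ≤
      M * (1 / 16) ^ k / 32 := by
  set p : ℝ := 1024 * r with hp
  have hp0 : 0 < p := by positivity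
  set N := Fintype.card X with hN
  set B : Finset X → Finset X := fun Z =>
    if h : ∃ j ∈ J, A j ⊆ Z then A (Classical.choose h) else ∅ with hB
  have hBk : ∀ Z, (B Z).card ≤ k := by
    intro Z
    simp only [hB]
    split_ifs with h
    · exact hk _ (Classical.choose_spec h).1
    · simp
  -- the index sets
  set s : Finset (Finset X × ι) :=
    ((Finset.univ : Finset (Finset X)) ×ˢ J).filter (fun x => k < 2 * (T x.1 x.2).card) with hs
  set t : Finset (Finset X × Finset X × ι) :=
    ((Finset.univ : Finset (Finset X)) ×ˢ (Finset.univ : Finset (Finset X)) ×ˢ J).filter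
      (fun x => x.2.1 ⊆ B x.1 ∧ k < 2 * x.2.1.card ∧ x.2.1 ⊆ A x.2.2) with ht
  set g : Finset X × Finset X × ι → ℝ :=
    fun x => p ^ x.1.card * (1 - p) ^ (N - x.1.card) * (p ^ x.2.1.card)⁻¹ with hg
  set e : Finset X × ι → Finset X × Finset X × ι :=
    fun x => (x.1 ∪ T x.1 x.2, T x.1 x.2, x.2) with he
  have h1p : 0 ≤ 1 - p := by linarith
  have hgnn : ∀ x, 0 ≤ g x := by
    intro x
    simp only [hg]
    positivity
  have hdisj : ∀ W, ∀ i ∈ J, Disjoint W (T W i) := by
    intro W i hi
    obtain ⟨j, _, _, h2⟩ := hT1 W i hi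
    rw [h2]
    exact Finset.disjoint_sdiff
  have hLHS : ex p (fun W => ((J.filter (fun i => k < 2 * (T W i).card)).card : ℝ)) =
      ∑ x ∈ s, p ^ x.1.card * (1 - p) ^ (N - x.1.card) := by
    unfold ex
    rw [hs, Finset.sum_filter, Finset.sum_product]
    apply Finset.sum_congr rfl
    intro W _
    beta_reduce
    rw [Finset.card_filter, Nat.cast_sum, Finset.mul_sum]
    apply Finset.sum_congr rfl
    intro i _
    dsimp only
    split_ifs <;> simp [hN]
  rw [hLHS]
  have hstep1 : ∑ x ∈ s, p ^ x.1.card * (1 - p) ^ (N - x.1.card) ≤ ∑ y ∈ t, g y := by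
    have hinj : Set.InjOn e s := by
      rintro ⟨W, i⟩ hx ⟨W', i'⟩ hx' hee
      simp only [hs, coe_filter, mem_product, mem_univ, true_and, Set.mem_ofPred_eq] at hx hx'
      simp only [he, Prod.mk.injEq] at hee
      obtain ⟨h1, h2, h3⟩ := hee
      have hd := hdisj W i hx.1
      have hd' := hdisj W' i' hx'.1
      rw [h2] at h1 hd
      have : W = W' := by
        rw [← Finset.union_sdiff_cancel_right hd, h1, Finset.union_sdiff_cancel_right hd']
      rw [this, h3]
    have himg : s.image e ⊆ t := by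
      intro y hy
      obtain ⟨⟨W, i⟩, hx, rfl⟩ := Finset.mem_image.1 hy
      simp only [hs, mem_filter, mem_product, mem_univ, true_and] at hx
      obtain ⟨hi, hki⟩ := hx
      obtain ⟨j, hj, hj1, hj2⟩ := hT1 W i hi
      have hTA : T W i ⊆ A i := by
        rw [hj2]
        intro x hx
        simp only [mem_sdiff] at hx
        have := hj1 hx.1
        rw [Finset.mem_union] at this
        tauto
      simp only [ht, he, mem_filter, mem_product, mem_univ, true_and]
      refine ⟨hi, ?_, hki, hTA⟩
      have hex : ∃ j ∈ J, A j ⊆ W ∪ T W i := by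
        refine ⟨j, hj, ?_⟩
        rw [hj2]
        intro x hx
        simp only [mem_union, mem_sdiff]
        tauto
      simp only [hB, dif_pos hex]
      set j₀ := Classical.choose hex with hj₀
      obtain ⟨hj₀J, hj₀Z⟩ := Classical.choose_spec hex
      rw [← hj₀] at hj₀J hj₀Z
      have h1 : A j₀ ⊆ W ∪ A i := hj₀Z.trans (Finset.union_subset_union_right hTA)
      have h2 := hT2 W i hi j₀ hj₀J h1
      have h3 : A j₀ \ W ⊆ T W i := by
        intro x hx
        simp only [mem_sdiff] at hx
        have := hj₀Z hx.1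
        rw [Finset.mem_union] at this
        tauto
      have h4 : A j₀ \ W = T W i := Finset.eq_of_subset_of_card_le h3 h2
      rw [← h4]
      exact Finset.sdiff_subset
    calc ∑ x ∈ s, p ^ x.1.card * (1 - p) ^ (N - x.1.card) ≤ ∑ x ∈ s, g (e x) := by
          apply Finset.sum_le_sum
          rintro ⟨W, i⟩ hx
          simp only [hs, mem_filter, mem_product, mem_univ, true_and] at hx
          simp only [hg, he]
          rw [Finset.card_union_of_disjoint (hdisj W i hx.1)]
          have hle : W.card + (T W i).card ≤ N := by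
            rw [← Finset.card_union_of_disjoint (hdisj W i hx.1)]
            exact Finset.card_le_univ _
          have h1 : (1 - p) ^ (N - W.card) ≤ (1 - p) ^ (N - (W.card + (T W i).card)) :=
            pow_le_pow_of_le_one h1p (by linarith) (by omega)
          rw [pow_add]
          have h2 : p ^ W.card * p ^ (T W i).card * (1 - p) ^ (N - (W.card + (T W i).card)) *
              (p ^ (T W i).card)⁻¹ = p ^ W.card * (1 - p) ^ (N - (W.card + (T W i).card)) := by
            have : p ^ (T W i).card ≠ 0 := by positivity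
            field_simp
          rw [h2]
          exact mul_le_mul_of_nonneg_left h1 (by positivity)
      _ = ∑ y ∈ s.image e, g y := (Finset.sum_image hinj).symm
      _ ≤ ∑ y ∈ t, g y := Finset.sum_le_sum_of_subset_of_nonneg himg (fun y _ _ => hgnn y)
  refine hstep1.trans ?_
  -- compute the sum over `t`
  have hstep2 : ∑ y ∈ t, g y ≤ ∑ Z : Finset X, p ^ Z.card * (1 - p) ^ (N - Z.card) *
      (M * (1 / 16) ^ k / 32) := by
    rw [ht, Finset.sum_filter, Finset.sum_product]
    apply Finset.sum_le_sum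
    intro Z _
    rw [Finset.sum_product]
    dsimp only
    have h1 : ∀ S : Finset X, ∑ i ∈ J, (if S ⊆ B Z ∧ k < 2 * S.card ∧ S ⊆ A i then g (Z, S, i)
        else 0) ≤ if S ⊆ B Z then p ^ Z.card * (1 - p) ^ (N - Z.card) *
          (M * (1 / 32) ^ (k + 1)) else 0 := by
      intro S
      by_cases h : S ⊆ B Z
      · by_cases h' : k < 2 * S.card
        · simp only [h, h', true_and, if_true]
          simp only [hg]
          rw [← Finset.sum_filter, Finset.sum_const, nsmul_eq_mul]
          calc ((J.filter (fun i => S ⊆ A i)).card : ℝ) *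
                (p ^ Z.card * (1 - p) ^ (N - Z.card) * (p ^ S.card)⁻¹) =
                p ^ Z.card * (1 - p) ^ (N - Z.card) *
                  (((J.filter (fun i => S ⊆ A i)).card : ℝ) * (p ^ S.card)⁻¹) := by ring
            _ ≤ p ^ Z.card * (1 - p) ^ (N - Z.card) * (M * (1 / 32) ^ (k + 1)) := by
                apply mul_le_mul_of_nonneg_left _ (by positivity)
                calc ((J.filter (fun i => S ⊆ A i)).card : ℝ) * (p ^ S.card)⁻¹ ≤
                      (M * r ^ S.card) * (p ^ S.card)⁻¹ :=
                        mul_le_mul_of_nonneg_right (hspread S) (by positivity)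
                  _ = M * (1 / 1024) ^ S.card := by
                        rw [hp, mul_pow, one_div, inv_pow]
                        have : r ^ S.card ≠ 0 := by positivity
                        field_simp
                  _ = M * (1 / 32) ^ (2 * S.card) := by
                        rw [pow_mul]; norm_num
                  _ ≤ M * (1 / 32) ^ (k + 1) := by
                        apply mul_le_mul_of_nonneg_left _ hM
                        exact pow_le_pow_of_le_one (by norm_num) (by norm_num) (by omega)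
        · simp only [h, h', false_and, and_false, if_false, if_true, Finset.sum_const_zero]
          positivity
      · simp [h]
    refine (Finset.sum_le_sum (fun S _ => h1 S)).trans ?_
    rw [← Finset.sum_filter, Finset.sum_const, nsmul_eq_mul]
    have h2 : ((Finset.univ : Finset (Finset X)).filter (fun S => S ⊆ B Z)) = (B Z).powerset := by
      ext S; simp
    rw [h2, Finset.card_powerset]
    have h3 : ((2 ^ (B Z).card : ℕ) : ℝ) ≤ 2 ^ k := by
      push_cast
      exact pow_le_pow_right₀ (by norm_num) (hBk Z)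
    calc ((2 ^ (B Z).card : ℕ) : ℝ) * (p ^ Z.card * (1 - p) ^ (N - Z.card) *
          (M * (1 / 32) ^ (k + 1))) ≤ 2 ^ k * (p ^ Z.card * (1 - p) ^ (N - Z.card) *
          (M * (1 / 32) ^ (k + 1))) := mul_le_mul_of_nonneg_right h3 (by positivity)
      _ = p ^ Z.card * (1 - p) ^ (N - Z.card) * (M * ((2 * (1 / 32)) ^ k) * (1 / 32)) := by
          rw [show (2 * (1 / 32 : ℝ)) ^ k = 2 ^ k * (1 / 32) ^ k from mul_pow _ _ _,
            pow_succ (1 / 32 : ℝ) k]
          ring
      _ = p ^ Z.card * (1 - p) ^ (N - Z.card) * (M * (1 / 16) ^ k / 32) := by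
          have : (2 * (1 / 32) : ℝ) = 1 / 16 := by norm_num
          rw [this]; ring
  refine hstep2.trans ?_
  have h := ex_const (X := X) p (M * (1 / 16) ^ k / 32)
  unfold ex at h
  exact h.le

open Classical in
theorem fknp_aux {ι : Type*} (M r : ℝ) (hM : 0 ≤ M) (hr : 0 < r) (hr1 : 1024 * r ≤ 1) (k : ℕ) :
    ∀ (J : Finset ι) (A : ι → Finset X), (∀ i ∈ J, (A i).card ≤ k) →
    (∀ S : Finset X, ((J.filter (fun i => S ⊆ A i)).card : ℝ) ≤ M * r ^ S.card) →
    (J.card : ℝ) * ex (1 - (1 - 1024 * r) ^ (Nat.size k))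
      (fun W => if ∀ i ∈ J, ¬ A i ⊆ W then 1 else 0) ≤ M / 15 * (1 - (1 / 16) ^ k) := by
  induction k using Nat.strong_induction_on with
  | _ k IH =>
  intro J A hk hspread
  rcases Nat.eq_zero_or_pos k with h0 | hpos
  · subst h0
    simp only [pow_zero, sub_self, mul_zero]
    rcases J.eq_empty_or_nonempty with hJ | ⟨i, hi⟩
    · simp [hJ]
    · have h1 : ∀ W : Finset X, (if ∀ i ∈ J, ¬ A i ⊆ W then (1 : ℝ) else 0) = 0 := by
        intro W
        rw [if_neg]
        intro h
        apply h i hi
        have := Finset.card_eq_zero.1 (Nat.le_zero.1 (hk i hi))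
        rw [this]
        exact Finset.empty_subset _
      simp only [h1]
      rw [ex_const, mul_zero]
  · -- choose the minimal fragments
    have hch : ∀ W : Finset X, ∀ i : ι, ∃ T : Finset X, i ∈ J →
        ((∃ j ∈ J, A j ⊆ W ∪ A i ∧ T = A j \ W) ∧
          ∀ j ∈ J, A j ⊆ W ∪ A i → T.card ≤ (A j \ W).card) := by
      intro W i
      by_cases hi : i ∈ J
      · obtain ⟨j, hj, hjmin⟩ := Finset.exists_min_image (J.filter (fun j => A j ⊆ W ∪ A i))
          (fun j => (A j \ W).card) ⟨i, by simp [hi]⟩
        rw [Finset.mem_filter] at hj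
        refine ⟨A j \ W, fun _ => ⟨⟨j, hj.1, hj.2, rfl⟩, fun j' hj' h => ?_⟩⟩
        exact hjmin j' (Finset.mem_filter.2 ⟨hj', h⟩)
      · exact ⟨∅, fun h => absurd h hi⟩
    choose T hT using hch
    have hT1 : ∀ W, ∀ i ∈ J, ∃ j ∈ J, A j ⊆ W ∪ A i ∧ T W i = A j \ W :=
      fun W i hi => (hT W i hi).1
    have hT2 : ∀ W, ∀ i ∈ J, ∀ j ∈ J, A j ⊆ W ∪ A i → (T W i).card ≤ (A j \ W).card :=
      fun W i hi => (hT W i hi).2
    have hkey := key_est J A k M r hM hr hr1 hk hspread T hT1 hT2
    set p₀ : ℝ := 1024 * r with hp₀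
    have hp₀0 : 0 < p₀ := by positivity
    set ph : ℝ := 1 - (1 - p₀) ^ (Nat.size (k / 2)) with hph
    have hph0 : 0 ≤ ph := by
      rw [hph]
      have : (1 - p₀) ^ (Nat.size (k / 2)) ≤ 1 := pow_le_one₀ (by linarith) (by linarith)
      linarith
    have hph1 : ph ≤ 1 := by
      rw [hph]
      have : 0 ≤ (1 - p₀) ^ (Nat.size (k / 2)) := pow_nonneg (by linarith) _
      linarith
    have hptot : 1 - (1 - p₀) ^ (Nat.size k) = 1 - (1 - p₀) * (1 - ph) := by
      rw [size_half_eq k hpos, hph, pow_succ]
      ring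
    rw [hptot, ← ex_union, ← ex_const_mul]
    set c : ℝ := M / 15 * (1 - (1 / 16) ^ (k / 2)) with hc
    have hpt : ∀ W₁ : Finset X, (J.card : ℝ) * ex ph (fun W₂ =>
        if ∀ i ∈ J, ¬ A i ⊆ W₁ ∪ W₂ then 1 else 0) ≤
        c + ((J.filter (fun i => k < 2 * (T W₁ i).card)).card : ℝ) := by
      intro W₁
      set J' := J.filter (fun i => ¬ k < 2 * (T W₁ i).card) with hJ'
      have hTA : ∀ i ∈ J, T W₁ i ⊆ A i := by
        intro i hi
        obtain ⟨j, hj, hj1, hj2⟩ := hT1 W₁ i hi
        rw [hj2]
        intro x hx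
        simp only [mem_sdiff] at hx
        have := hj1 hx.1
        rw [Finset.mem_union] at this
        tauto
      have hIH := IH (k / 2) (Nat.div_lt_self hpos (by norm_num)) J' (T W₁)
        (by
          intro i hi
          rw [hJ', Finset.mem_filter] at hi
          omega)
        (by
          intro S
          refine le_trans ?_ (hspread S)
          have : (J'.filter (fun i => S ⊆ T W₁ i)) ⊆ J.filter (fun i => S ⊆ A i) := by
            intro i hi
            rw [Finset.mem_filter, hJ', Finset.mem_filter] at hi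
            rw [Finset.mem_filter]
            exact ⟨hi.1.1, hi.2.trans (hTA i hi.1.1)⟩
          exact_mod_cast Finset.card_le_card this)
      rw [← hph, ← hc] at hIH
      set f₁ := ex ph (fun W₂ => if ∀ i ∈ J, ¬ A i ⊆ W₁ ∪ W₂ then (1 : ℝ) else 0) with hf₁
      set f₂ := ex ph (fun W₂ => if ∀ i ∈ J', ¬ T W₁ i ⊆ W₂ then (1 : ℝ) else 0) with hf₂
      have hf12 : f₁ ≤ f₂ := by
        apply ex_mono hph0 hph1
        intro W₂
        by_cases h : ∀ i ∈ J', ¬ T W₁ i ⊆ W₂
        · rw [if_pos h]
          split_ifs <;> norm_num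
        · rw [if_neg h, if_neg]
          push Not at h
          obtain ⟨i, hi, hiW⟩ := h
          rw [hJ', Finset.mem_filter] at hi
          obtain ⟨j, hj, hj1, hj2⟩ := hT1 W₁ i hi.1
          intro hall
          apply hall j hj
          rw [hj2] at hiW
          intro x hx
          rw [Finset.mem_union]
          by_cases hxW : x ∈ W₁
          · exact Or.inl hxW
          · exact Or.inr (hiW (Finset.mem_sdiff.2 ⟨hx, hxW⟩))
      have hf1 : f₁ ≤ 1 := by
        rw [← ex_one (X := X) ph]
        apply ex_mono hph0 hph1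
        intro W₂
        split_ifs <;> norm_num
      have hcard : (J.card : ℝ) = J'.card +
          ((J.filter (fun i => k < 2 * (T W₁ i).card)).card : ℝ) := by
        rw [add_comm]
        exact_mod_cast (Finset.card_filter_add_card_filter_not (s := J)
          (fun i => k < 2 * (T W₁ i).card)).symm
      rw [hcard, add_mul]
      apply add_le_add
      · exact (mul_le_mul_of_nonneg_left hf12 (Nat.cast_nonneg _)).trans hIH
      · calc ((J.filter (fun i => k < 2 * (T W₁ i).card)).card : ℝ) * f₁ ≤
            ((J.filter (fun i => k < 2 * (T W₁ i).card)).card : ℝ) * 1 :=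
              mul_le_mul_of_nonneg_left hf1 (Nat.cast_nonneg _)
          _ = _ := mul_one _
    refine (ex_mono hp₀0.le hr1 hpt).trans ?_
    rw [ex_add, ex_const]
    refine (add_le_add le_rfl hkey).trans ?_
    rw [hc]
    have h1 : (16 : ℝ) * (1 / 16) ^ k ≤ (1 / 16) ^ (k / 2) := by
      calc (16 : ℝ) * (1 / 16) ^ k = (1 / 16) ^ (k - 1) := by
            obtain ⟨m, rfl⟩ := Nat.exists_eq_succ_of_ne_zero hpos.ne'
            rw [pow_succ]
            simp
            ring
        _ ≤ (1 / 16) ^ (k / 2) :=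
            pow_le_pow_of_le_one (by norm_num) (by norm_num) (by omega)
    have h2 : (0 : ℝ) ≤ (1 / 16) ^ k := by positivity
    nlinarith [mul_le_mul_of_nonneg_left h1 hM, mul_nonneg hM h2]

open Classical in
/-- Frankston-Kahn-Narayanan-Park for a spread family, product measure version. -/
theorem fknp {ι : Type*} (J : Finset ι) (A : ι → Finset X) (k : ℕ) (M r : ℝ) (hM : 0 ≤ M)
    (hr : 0 < r) (hr1 : 1024 * r ≤ 1) (hk : ∀ i ∈ J, (A i).card ≤ k)
    (hspread : ∀ S : Finset X, ((J.filter (fun i => S ⊆ A i)).card : ℝ) ≤ M * r ^ S.card) :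
    (J.card : ℝ) * ex (1 - (1 - 1024 * r) ^ (Nat.size k))
      (fun W => if ∀ i ∈ J, ¬ A i ⊆ W then 1 else 0) ≤ M / 15 := by
  refine (fknp_aux M r hM hr hr1 k J A hk hspread).trans ?_
  have h2 : (0 : ℝ) ≤ (1 / 16) ^ k := by positivity
  nlinarith [mul_nonneg hM h2]

end Vale.Agent.P064
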