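import Vale.Agent.Lib.P064.Translate

namespace Vale.Agent.P064

open Finset SimpleGraph
open scoped Pointwise

theorem card_filter_subset_smul {n : ℕ} (E₀ S : Finset (Edge n)) :
    ((Finset.univ : Finset (Equiv.Perm (Fin n))).filter (fun g => S ⊆ g • E₀)).card =
      aCount (Equiv.Perm (Fin n)) E₀ S := by
  unfold aCount
  refine Finset.card_bij' (fun g _ => g⁻¹) (fun g _ => g⁻¹) ?_ ?_ ?_ ?_
  · intro g hg
    simp only [mem_filter, mem_univ, true_and] at hg ⊢
    rw [Finset.smul_finset_subset_iff, inv_inv]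
    exact hg
  · intro g hg
    simp only [mem_filter, mem_univ, true_and] at hg ⊢
    rw [Finset.smul_finset_subset_iff] at hg
    exact hg
  · intro g _; simp
  · intro g _; simp

theorem probContains_ge {n : ℕ} {V : Type*} [Fintype V] (H : SimpleGraph V) (φ : V ↪ Fin n)
    {p : ℝ} (hp0 : 0 ≤ p) (hp1 : p ≤ 1) :
    1 - ex p (fun W : Finset (Edge n) =>
      if ∀ g ∈ (Finset.univ : Finset (Equiv.Perm (Fin n))), ¬ g • edges (H.map φ) ⊆ W then
        1 else 0) ≤ probContains n p H := by
  classical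
  have h1 : probContains n p H = ex (X := Edge n) p
      (fun W => if 0 < (graphOf W).copyCount H then 1 else 0) := by
    unfold probContains
    rw [← sum_gnpProb p (fun G => if 0 < G.copyCount H then (1 : ℝ) else 0)]
    apply Finset.sum_congr rfl
    intro G _
    split_ifs <;> simp
  rw [h1, sub_le_iff_le_add, ← ex_add]
  refine (ex_one (X := Edge n) p).symm.le.trans ?_
  apply ex_mono hp0 hp1
  intro W
  by_cases h : ∀ g ∈ (Finset.univ : Finset (Equiv.Perm (Fin n))), ¬ g • edges (H.map φ) ⊆ W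
  · rw [if_pos h]
    split_ifs <;> norm_num
  · rw [if_neg h, if_pos]
    · norm_num
    · push Not at h
      obtain ⟨g, _, hg⟩ := h
      rw [copyCount_pos]
      refine ⟨⟨⟨fun v => g (φ v), ?_⟩, ?_⟩⟩
      · intro a b hab
        have h3 : (graphOf (g • edges (H.map φ))).Adj (g (φ a)) (g (φ b)) := by
          rw [graphOf_adj_smul, graphOf_edges_map_adj]
          exact hab
        obtain ⟨e, he, h4⟩ := h3
        exact ⟨e, hg he, h4⟩
      · intro a b hab
        exact φ.injective (g.injective hab)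

section

variable {n : ℕ} {V : Type*} [Fintype V] (H : SimpleGraph V) (φ : V ↪ Fin n)

include φ

omit [Fintype V] in
theorem aCount_le_one (S : Finset (Edge n)) :
    (aCount (Equiv.Perm (Fin n)) (edges (H.map φ)) S : ℝ) ≤
      Fintype.card (Equiv.Perm (Fin n)) * (1 : ℝ) ^ S.card := by
  rw [one_pow, mul_one]
  exact_mod_cast aCount_le_card _ _

theorem one_mem_pE : (1 : ℝ) ∈ {p : ℝ | 0 ≤ p ∧ p ≤ 1 ∧
    ∀ F : H.Subgraph, 1 / 2 ≤ expCopies n p F.coe} := by
  refine ⟨zero_le_one, le_rfl, fun F => ?_⟩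
  have h1 := copyCount_le H φ 1 (aCount_le_one H φ) F
  have h2 : 0 < H.copyCount F.coe := by
    rw [copyCount_pos]
    exact F.coe_isContained
  have h3 : (1 : ℝ) ≤ H.copyCount F.coe := by exact_mod_cast h2
  linarith

theorem pEt_le_of_spread {p : ℝ} (hp0 : 0 ≤ p) (hp1 : p ≤ 1)
    (hp : ∀ S : Finset (Edge n), (aCount (Equiv.Perm (Fin n)) (edges (H.map φ)) S : ℝ) ≤
      Fintype.card (Equiv.Perm (Fin n)) * p ^ S.card) : pEt n H ≤ p := by
  unfold pEt
  apply csInf_le ⟨0, fun x hx => hx.1⟩
  refine ⟨hp0, hp1, fun F => ?_⟩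
  have h1 := copyCount_le H φ p hp F
  have h2 : (0 : ℝ) ≤ H.copyCount F.coe := Nat.cast_nonneg _
  linarith

theorem pc_le_one : pc n H ≤ 1 := by
  unfold pc
  apply csInf_le ⟨0, fun x hx => hx.1⟩
  refine ⟨zero_le_one, le_rfl, ?_⟩
  refine le_trans ?_ (probContains_ge H φ zero_le_one le_rfl)
  have h1 : ex (X := Edge n) 1 (fun W : Finset (Edge n) =>
      if ∀ g ∈ (Finset.univ : Finset (Equiv.Perm (Fin n))), ¬ g • edges (H.map φ) ⊆ W then
        1 else 0) = 0 := by
    unfold ex
    apply Finset.sum_eq_zero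
    intro W _
    by_cases hW : W = Finset.univ
    · beta_reduce
      rw [if_neg]
      · simp
      · intro h
        apply h 1 (Finset.mem_univ _)
        rw [hW]
        exact Finset.subset_univ _
    · have h2 : W.card < Fintype.card (Edge n) := by
        rw [← Finset.card_univ]
        exact Finset.card_lt_card (Finset.ssubset_univ_iff.2 hW)
      have h3 : (1 - 1 : ℝ) ^ (Fintype.card (Edge n) - W.card) = 0 := by
        rw [sub_self]
        exact zero_pow (by omega)
      rw [h3]
      simp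
  rw [h1]
  norm_num

theorem pc_le_of_spread {r : ℝ} (hr : 0 < r) (hr1 : 1024 * r ≤ 1)
    (hp : ∀ S : Finset (Edge n), (aCount (Equiv.Perm (Fin n)) (edges (H.map φ)) S : ℝ) ≤
      Fintype.card (Equiv.Perm (Fin n)) * r ^ S.card) :
    pc n H ≤ Nat.size (edges (H.map φ)).card * (1024 * r) := by
  classical
  set E₀ := edges (H.map φ) with hE₀
  set M : ℝ := ((Fintype.card (Equiv.Perm (Fin n)) : ℕ) : ℝ) with hM
  have hMpos : 0 < M := by
    rw [hM]
    exact_mod_cast Fintype.card_pos
  have h := fknp (X := Edge n) (Finset.univ : Finset (Equiv.Perm (Fin n))) (fun g => g • E₀)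
    E₀.card M r hMpos.le hr hr1 (fun g _ => by rw [Finset.card_smul_finset])
    (fun S => by
      refine le_trans (le_of_eq ?_) (hp S)
      rw [← card_filter_subset_smul])
  set p : ℝ := 1 - (1 - 1024 * r) ^ (Nat.size E₀.card) with hpdef
  have h1 : 0 ≤ 1 - 1024 * r := by linarith
  have hp0 : 0 ≤ p := by
    have : (1 - 1024 * r) ^ (Nat.size E₀.card) ≤ 1 := pow_le_one₀ h1 (by linarith)
    linarith
  have hp1 : p ≤ 1 := by
    have : 0 ≤ (1 - 1024 * r) ^ (Nat.size E₀.card) := pow_nonneg h1 _
    linarith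
  have hple : p ≤ Nat.size E₀.card * (1024 * r) := by
    have := one_add_mul_le_pow (a := -(1024 * r)) (by linarith) (Nat.size E₀.card)
    rw [← sub_eq_add_neg] at this
    linarith
  refine le_trans ?_ hple
  unfold pc
  apply csInf_le ⟨0, fun x hx => hx.1⟩
  refine ⟨hp0, hp1, ?_⟩
  refine le_trans ?_ (probContains_ge H φ hp0 hp1)
  rw [Finset.card_univ, ← hM] at h
  have h2 : M * ex p (fun W : Finset (Edge n) =>
      if ∀ g ∈ (Finset.univ : Finset (Equiv.Perm (Fin n))), ¬ g • E₀ ⊆ W then 1 else 0) ≤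
      M * (1 / 15) := by
    refine le_trans (le_of_eq ?_) (h.trans (by linarith))
    congr 1
    congr 1
    funext W
    split_ifs <;> rfl
  have h3 := le_of_mul_le_mul_left h2 hMpos
  linarith

end

theorem size_le_log {k n : ℕ} (hn : 2 ≤ n) (hk : k ≤ n.choose 2) :
    (Nat.size k : ℝ) ≤ 6 * Real.log n := by
  have h1 : Nat.size k ≤ 2 * Nat.size n := by
    rw [Nat.size_le]
    have h2 : n < 2 ^ Nat.size n := Nat.lt_size_self n
    have h3 : n.choose 2 ≤ n ^ 2 := Nat.choose_le_pow n 2
    calc k ≤ n ^ 2 := hk.trans h3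
      _ < (2 ^ Nat.size n) ^ 2 := Nat.pow_lt_pow_left h2 (by norm_num)
      _ = 2 ^ (2 * Nat.size n) := by rw [← pow_mul, mul_comm]
  have h4 : 0 < Nat.size n := Nat.size_pos.2 (by omega)
  have h5 : 2 ^ (Nat.size n - 1) ≤ n := by
    rw [← Nat.lt_size]
    omega
  have h6 : ((Nat.size n : ℝ) - 1) * Real.log 2 ≤ Real.log n := by
    have h7 : ((Nat.size n - 1 : ℕ) : ℝ) * Real.log 2 ≤ Real.log n := by
      rw [← Real.log_pow]
      apply Real.log_le_log (by positivity)
      exact_mod_cast h5
    rwa [Nat.cast_sub (by omega), Nat.cast_one] at h7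
  have h8 : Real.log 2 ≤ Real.log n := by
    apply Real.log_le_log (by norm_num)
    exact_mod_cast hn
  have h9 : 0.6931471803 < Real.log 2 := Real.log_two_gt_d9
  have h10 : (Nat.size k : ℝ) ≤ 2 * Nat.size n := by exact_mod_cast h1
  have h11 : (Nat.size n : ℝ) * Real.log 2 ≤ 2 * Real.log n := by linarith
  have h12 : (Nat.size n : ℝ) ≤ 3 * Real.log n := by
    have h13 : (Nat.size n : ℝ) * Real.log 2 ≤ (3 * Real.log n) * Real.log 2 := by
      have : 0 < Real.log n := by linarith
      nlinarith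
    exact le_of_mul_le_mul_right h13 (by linarith)
  linarith

theorem main {n : ℕ} {V : Type*} [Fintype V] (H : SimpleGraph V) (hn : 2 ≤ n)
    (hV : Fintype.card V ≤ n) (hH : H ≠ ⊥) :
    pEt n H ≤ 96 * pE n H * Real.log n ∧ pc n H ≤ 589824 * pE n H * (Real.log n) ^ 2 := by
  classical
  obtain ⟨φ⟩ : Nonempty (V ↪ Fin n) := by
    apply Function.Embedding.nonempty_of_card_le
    rwa [Fintype.card_fin]
  set E₀ := edges (H.map φ) with hE₀
  have hE₀pos : 0 < E₀.card := by
    rw [hE₀, card_edges_map, Set.ncard_pos]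
    exact edgeSet_nonempty.2 hH
  have hE₀le : E₀.card ≤ n.choose 2 := by
    rw [← card_Edge]
    exact Finset.card_le_univ _
  have hlog : 0 < Real.log n := Real.log_pos (by exact_mod_cast hn)
  set s : ℝ := ((Nat.size E₀.card : ℕ) : ℝ) with hs
  have hs1 : 1 ≤ s := by
    rw [hs]
    exact_mod_cast Nat.size_pos.2 hE₀pos
  have hslog : s ≤ 6 * Real.log n := size_le_log hn hE₀le
  have hbound : ∀ q ∈ {p : ℝ | 0 ≤ p ∧ p ≤ 1 ∧
      ∀ F : H.Subgraph, 1 / 2 ≤ expCopies n p F.coe},
      pEt n H ≤ 96 * q * Real.log n ∧ pc n H ≤ 589824 * q * (Real.log n) ^ 2 := by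
    rintro q ⟨hq0, hq1, hq⟩
    have hA := fun (S : Finset (Edge n)) (hS : S ⊆ E₀) => stab_le H φ q hq S hS
    have hqpos : 0 < q := by
      rcases hq0.lt_or_eq with h | h
      · exact h
      · exfalso
        have h1 := hA E₀ (Finset.Subset.refl _)
        rw [← h, zero_pow hE₀pos.ne', mul_zero] at h1
        have h2 : (0 : ℝ) < ((Finset.univ.filter
            (fun g : Equiv.Perm (Fin n) => g • E₀ = E₀)).card : ℝ) := by
          exact_mod_cast Finset.card_pos.2 ⟨1, by simp⟩
        linarith
    set r : ℝ := 16 * s * q with hr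
    have hrpos : 0 < r := by positivity
    have hspread : ∀ S : Finset (Edge n), (aCount (Equiv.Perm (Fin n)) E₀ S : ℝ) ≤
        Fintype.card (Equiv.Perm (Fin n)) * r ^ S.card :=
      fun S => spread_main q hqpos E₀ hA S
    have hrle : r ≤ 96 * q * Real.log n := by
      rw [hr]
      nlinarith
    constructor
    · refine le_trans ?_ hrle
      rcases le_total r 1 with h | h
      · exact pEt_le_of_spread H φ hrpos.le h hspread
      · exact (pEt_le_of_spread H φ zero_le_one le_rfl (aCount_le_one H φ)).trans h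
    · have h1 : pc n H ≤ s * (1024 * r) := by
        rcases le_total (1024 * r) 1 with h | h
        · exact pc_le_of_spread H φ hrpos h hspread
        · refine (pc_le_one H φ).trans ?_
          nlinarith
      refine h1.trans ?_
      have h2 : s * (1024 * r) ≤ (6 * Real.log n) * (1024 * (96 * q * Real.log n)) := by
        apply mul_le_mul hslog _ (by positivity) (by positivity)
        linarith
      refine h2.trans (le_of_eq ?_)
      ring
  have hne : {p : ℝ | 0 ≤ p ∧ p ≤ 1 ∧
      ∀ F : H.Subgraph, 1 / 2 ≤ expCopies n p F.coe}.Nonempty := ⟨1, one_mem_pE H φ⟩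
  constructor
  · have h1 : pEt n H / (96 * Real.log n) ≤ pE n H := by
      unfold pE
      apply le_csInf hne
      intro q hq
      rw [div_le_iff₀ (by positivity)]
      have := (hbound q hq).1
      linarith
    rw [div_le_iff₀ (by positivity)] at h1
    linarith
  · have h1 : pc n H / (589824 * (Real.log n) ^ 2) ≤ pE n H := by
      unfold pE
      apply le_csInf hne
      intro q hq
      rw [div_le_iff₀ (by positivity)]
      have := (hbound q hq).2
      linarith
    rw [div_le_iff₀ (by positivity)] at h1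
    linarith

end Vale.Agent.P064
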