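import Vale.Agent.Lib.P064.Defs

namespace Vale.Agent.P064

open Finset SimpleGraph

theorem toSubgraph_adj {V W : Type*} {G : SimpleGraph V} {F : SimpleGraph W} (f : Copy F G)
    (x y : V) : f.toSubgraph.Adj x y ↔ ∃ a b, F.Adj a b ∧ f a = x ∧ f b = y := by
  rw [Subgraph.map_adj]
  simp [Relation.Map]

theorem mem_toSubgraph {V W : Type*} {G : SimpleGraph V} {F : SimpleGraph W} (f : Copy F G)
    (x : V) : x ∈ f.toSubgraph.verts ↔ ∃ a, f a = x := by
  simp [Subgraph.map_verts]

/-- number of labelled copies = number of copies times number of automorphisms. -/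
theorem labelled_eq {V W : Type*} [Fintype V] [Fintype W] (G : SimpleGraph V)
    (F : SimpleGraph W) :
    G.labelledCopyCount F = G.copyCount F * Nat.card (F ≃g F) := by
  classical
  have : Fintype (F ≃g F) := Fintype.ofInjective (fun e : F ≃g F => (e : W → W))
    (fun a b h => by ext x; exact congrFun h x)
  rw [Nat.card_eq_fintype_card]
  rw [copyCount_eq_card_image_copyToSubgraph]
  unfold labelledCopyCount
  rw [← Finset.card_univ]
  rw [show (Finset.univ : Finset (Copy F G)).card = ∑ b ∈ (Finset.univ : Finset (F.Copy G)).image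
    Copy.toSubgraph, ((Finset.univ : Finset (F.Copy G)).filter (fun a => a.toSubgraph = b)).card
    from Finset.card_eq_sum_card_image _ _]
  rw [← smul_eq_mul]
  apply Finset.sum_const_nat
  intro b hb
  obtain ⟨f₀, _, rfl⟩ := Finset.mem_image.1 hb
  symm
  rw [← Finset.card_univ]
  apply Finset.card_bij (fun e _ => f₀.comp e.toCopy)
  · intro e _
    simp only [mem_filter, mem_univ, true_and]
    apply Subgraph.ext
    · ext x
      rw [mem_toSubgraph, mem_toSubgraph]
      constructor
      · rintro ⟨a, rfl⟩
        exact ⟨e a, rfl⟩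
      · rintro ⟨a, rfl⟩
        exact ⟨e.symm a, by simp⟩
    · ext x y
      rw [toSubgraph_adj, toSubgraph_adj]
      constructor
      · rintro ⟨a, b, hab, rfl, rfl⟩
        exact ⟨e a, e b, e.map_adj_iff.2 hab, rfl, rfl⟩
      · rintro ⟨a, b, hab, rfl, rfl⟩
        exact ⟨e.symm a, e.symm b, e.symm.map_adj_iff.2 hab, by simp, by simp⟩
  · intro e _ e' _ h
    ext x
    have := DFunLike.congr_fun h x
    exact f₀.injective this
  · intro f hf
    simp only [mem_filter, mem_univ, true_and] at hf
    have h1 : ∀ a : W, ∃ a' : W, f₀ a' = f a := by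
      intro a
      rw [← mem_toSubgraph, ← hf, mem_toSubgraph]
      exact ⟨a, rfl⟩
    choose φ hφ using h1
    have hinj : Function.Injective φ := by
      intro a b hab
      apply f.injective
      show f a = f b
      rw [← hφ a, ← hφ b, hab]
    have hbij : Function.Bijective φ := Finite.injective_iff_bijective.1 hinj
    have hadj : ∀ a b, F.Adj (φ a) (φ b) ↔ F.Adj a b := by
      intro a b
      constructor
      · intro h
        have h2 : f₀.toSubgraph.Adj (f₀ (φ a)) (f₀ (φ b)) := (toSubgraph_adj _ _ _).2 ⟨_, _, h, rfl, rfl⟩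
        rw [← hf, hφ, hφ, toSubgraph_adj] at h2
        obtain ⟨a', b', hab, h3, h4⟩ := h2
        rwa [f.injective h3, f.injective h4] at hab
      · intro h
        have h2 : f.toSubgraph.Adj (f a) (f b) := (toSubgraph_adj _ _ _).2 ⟨_, _, h, rfl, rfl⟩
        rw [hf, ← hφ, ← hφ, toSubgraph_adj] at h2
        obtain ⟨a', b', hab, h3, h4⟩ := h2
        rwa [f₀.injective h3, f₀.injective h4] at hab
    refine ⟨⟨Equiv.ofBijective φ hbij, hadj _ _⟩, Finset.mem_univ _, ?_⟩
    ext a
    exact hφ a

/-- The number of permutations of `Fin n` with a prescribed restriction to a subset. -/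
theorem perm_fiber {n : ℕ} {W : Type*} [Fintype W] [DecidableEq W] (f ψ : W ↪ Fin n) :
    (Finset.univ.filter (fun g : Equiv.Perm (Fin n) => ∀ a, g (f a) = ψ a)).card
      * Fintype.card (W ↪ Fin n) = n.factorial := by
  have h1 : ∀ ψ' : W ↪ Fin n,
      (Finset.univ.filter (fun g : Equiv.Perm (Fin n) => ∀ a, g (f a) = ψ' a)).card =
      (Finset.univ.filter (fun g : Equiv.Perm (Fin n) => ∀ a, g (f a) = ψ a)).card := by
    intro ψ'
    obtain ⟨h, hh⟩ : ∃ h : Equiv.Perm (Fin n), ∀ a, h (ψ' a) = ψ a := by
      classical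
      let e : {x // x ∈ Set.range ψ'} ≃ {x // x ∈ Set.range ψ} :=
        (Equiv.ofInjective ψ' ψ'.injective).symm.trans (Equiv.ofInjective ψ ψ.injective)
      refine ⟨e.extendSubtype, fun a => ?_⟩
      rw [Equiv.extendSubtype_apply_of_mem e (ψ' a) ⟨a, rfl⟩]
      simp only [e, Equiv.trans_apply]
      have : (Equiv.ofInjective ψ' ψ'.injective).symm ⟨ψ' a, ⟨a, rfl⟩⟩ = a :=
        Equiv.ofInjective_symm_apply ψ'.injective a
      rw [this]
      rfl
    apply Finset.card_bij' (fun g _ => h * g) (fun g _ => h⁻¹ * g)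
    · intro g hg
      simp only [mem_filter, mem_univ, true_and] at hg ⊢
      intro a
      rw [Equiv.Perm.mul_apply, hg, hh]
    · intro g hg
      simp only [mem_filter, mem_univ, true_and] at hg ⊢
      intro a
      rw [Equiv.Perm.mul_apply, hg, ← hh]
      simp
    · intro g _
      simp
    · intro g _
      simp
  have h2 : (Finset.univ : Finset (Equiv.Perm (Fin n))).card = ∑ ψ' : W ↪ Fin n,
      (Finset.univ.filter (fun g : Equiv.Perm (Fin n) => ∀ a, g (f a) = ψ' a)).card := by
    rw [Finset.card_eq_sum_card_fiberwise (t := (Finset.univ : Finset (W ↪ Fin n)))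
      (f := fun g => f.trans g.toEmbedding) (fun _ _ => Finset.mem_univ _)]
    apply Finset.sum_congr rfl
    intro ψ' _
    congr 1
    ext g
    simp only [mem_filter, mem_univ, true_and]
    constructor
    · intro h a
      rw [← h]
      rfl
    · intro h
      ext a
      exact congrArg _ (h a)
  rw [Finset.sum_congr rfl (fun ψ' _ => h1 ψ'), Finset.sum_const, Finset.card_univ,
    Finset.card_univ, Fintype.card_perm, Fintype.card_fin, smul_eq_mul] at h2
  rw [h2, mul_comm]

end Vale.Agent.P064
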