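import Vale.Agent.Lib.P064.FKNP
import Vale.Agent.Lib.P064.Labelled

namespace Vale.Agent.P064

open Finset SimpleGraph
open scoped Pointwise

/-- the edges of the complete graph on `Fin n` -/
abbrev Edge (n : ℕ) : Type := {e : Sym2 (Fin n) // ¬ e.IsDiag}

instance edgeAction (n : ℕ) : MulAction (Equiv.Perm (Fin n)) (Edge n) where
  smul g e := ⟨Sym2.map g e.1, by
    rw [Sym2.isDiag_map g.injective]
    exact e.2⟩
  one_smul e := by
    apply Subtype.ext
    show Sym2.map _ e.1 = e.1
    exact Sym2.map_id' ▸ rfl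
  mul_smul g h e := by
    apply Subtype.ext
    show Sym2.map _ e.1 = Sym2.map _ (Sym2.map _ e.1)
    rw [Sym2.map_map]
    rfl

theorem edge_smul_val {n : ℕ} (g : Equiv.Perm (Fin n)) (e : Edge n) :
    (g • e).1 = Sym2.map g e.1 := rfl

open Classical in
/-- the set of edges of a graph -/
noncomputable def edges {n : ℕ} (G : SimpleGraph (Fin n)) : Finset (Edge n) :=
  Finset.univ.filter (fun e => e.1 ∈ G.edgeSet)

/-- the graph with a given set of edges -/
def graphOf {n : ℕ} (W : Finset (Edge n)) : SimpleGraph (Fin n) where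
  Adj a b := ∃ e ∈ W, e.1 = s(a, b)
  symm := ⟨by
    rintro a b ⟨e, he, h⟩
    exact ⟨e, he, h.trans Sym2.eq_swap⟩⟩
  loopless := ⟨by
    rintro a ⟨e, he, h⟩
    apply e.2
    rw [h]
    simp⟩

theorem mem_edges {n : ℕ} (G : SimpleGraph (Fin n)) (e : Edge n) :
    e ∈ edges G ↔ e.1 ∈ G.edgeSet := by
  simp [edges]

theorem mem_edgeSet_graphOf {n : ℕ} (W : Finset (Edge n)) (e : Edge n) :
    e.1 ∈ (graphOf W).edgeSet ↔ e ∈ W := by
  obtain ⟨e, he⟩ := e
  induction e using Sym2.ind with
  | _ a b =>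
    show (graphOf W).Adj a b ↔ _
    constructor
    · rintro ⟨e, he, h⟩
      convert he
      exact h.symm
    · intro h
      exact ⟨_, h, rfl⟩

/-- graphs correspond to edge sets -/
noncomputable def gEquiv (n : ℕ) : SimpleGraph (Fin n) ≃ Finset (Edge n) where
  toFun := edges
  invFun := graphOf
  left_inv G := by
    ext a b
    constructor
    · rintro ⟨e, he, h⟩
      rw [mem_edges, h] at he
      exact he
    · intro h
      exact ⟨⟨s(a, b), by simpa using h.ne⟩, by rw [mem_edges]; exact h, rfl⟩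
  right_inv W := by
    ext e
    rw [mem_edges, mem_edgeSet_graphOf]

theorem edges_graphOf {n : ℕ} (W : Finset (Edge n)) : edges (graphOf W) = W :=
  (gEquiv n).right_inv W

theorem graphOf_edges {n : ℕ} (G : SimpleGraph (Fin n)) : graphOf (edges G) = G :=
  (gEquiv n).left_inv G

theorem card_edges {n : ℕ} (G : SimpleGraph (Fin n)) : (edges G).card = G.edgeSet.ncard := by
  rw [← Set.ncard_coe_finset]
  apply Set.ncard_congr (fun e _ => e.1)
  · intro e he
    simpa [mem_edges] using he
  · intro e e' _ _ h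
    exact Subtype.ext h
  · intro e he
    have h1 : ¬ e.IsDiag := G.not_isDiag_of_mem_edgeSet he
    exact ⟨⟨e, h1⟩, by simpa [mem_edges] using he, rfl⟩

theorem card_Edge (n : ℕ) : Fintype.card (Edge n) = n.choose 2 := by
  rw [Sym2.card_subtype_not_diag, Fintype.card_fin]

theorem sum_gnpProb {n : ℕ} (p : ℝ) (f : SimpleGraph (Fin n) → ℝ) :
    ∑ G : SimpleGraph (Fin n), gnpProb n p G * f G = ex p (fun W => f (graphOf W)) := by
  unfold ex gnpProb
  rw [← (gEquiv n).symm.sum_comp]
  apply Finset.sum_congr rfl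
  intro W _
  show p ^ (graphOf W).edgeSet.ncard * (1 - p) ^ (n.choose 2 - (graphOf W).edgeSet.ncard) *
    f (graphOf W) = _
  rw [← card_edges, edges_graphOf, card_Edge]

theorem edges_subset_iff {n : ℕ} {W : Type*} (F : SimpleGraph W) (ψ : W ↪ Fin n)
    (S : Finset (Edge n)) :
    edges (F.map ψ) ⊆ S ↔ ∀ a b, F.Adj a b → (graphOf S).Adj (ψ a) (ψ b) := by
  constructor
  · intro h a b hab
    have h1 : (F.map ψ).Adj (ψ a) (ψ b) := by
      rw [SimpleGraph.map_adj]
      exact ⟨a, b, hab, rfl, rfl⟩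
    exact ⟨⟨s(ψ a, ψ b), by simpa using h1.ne⟩, h ((mem_edges _ _).2 h1), rfl⟩
  · intro h e he
    rw [mem_edges] at he
    rw [← mem_edgeSet_graphOf]
    obtain ⟨e, he'⟩ := e
    induction e using Sym2.ind with
    | _ a b =>
      have h1 : (F.map ψ).Adj a b := he
      rw [SimpleGraph.map_adj] at h1
      obtain ⟨u, v, huv, rfl, rfl⟩ := h1
      exact h u v huv

theorem card_edges_map {n : ℕ} {W : Type*} (F : SimpleGraph W) (ψ : W ↪ Fin n) :
    (edges (F.map ψ)).card = F.edgeSet.ncard := by
  rw [card_edges, SimpleGraph.edgeSet_map]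
  exact Set.ncard_image_of_injective _ (ψ.sym2Map.injective)

theorem labelled_eq_natCard {V W : Type*} [Fintype V] [Fintype W] (G : SimpleGraph V)
    (F : SimpleGraph W) : G.labelledCopyCount F = Nat.card (Copy F G) := by
  classical
  rw [Nat.card_eq_fintype_card]
  rfl

/-- labelled copies are embeddings whose image is contained in the graph -/
theorem labelled_eq_card {n : ℕ} {W : Type*} [Fintype W] [DecidableEq W] (F : SimpleGraph W)
    (S : Finset (Edge n)) :
    (graphOf S).labelledCopyCount F =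
      ((Finset.univ : Finset (W ↪ Fin n)).filter
        (fun ψ : W ↪ Fin n => edges (F.map ψ) ⊆ S)).card := by
  rw [labelled_eq_natCard, ← Fintype.card_subtype, ← Nat.card_eq_fintype_card]
  exact Nat.card_congr
    { toFun := fun f => ⟨f.toEmbedding, by
        rw [edges_subset_iff]
        intro a b hab
        exact f.toHom.map_adj hab⟩
      invFun := fun ψ => ⟨⟨ψ.1, fun {a b} h => (edges_subset_iff F ψ.1 S).1 ψ.2 a b h⟩,
        ψ.1.injective⟩
      left_inv := fun f => by ext a; rfl
      right_inv := fun ψ => by apply Subtype.ext; ext a; rfl }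

theorem expCopies_mul_aut {n : ℕ} (p : ℝ) {W : Type*} [Fintype W] [DecidableEq W]
    (F : SimpleGraph W) :
    expCopies n p F * (Nat.card (F ≃g F) : ℝ) =
      Fintype.card (W ↪ Fin n) * p ^ F.edgeSet.ncard := by
  unfold expCopies
  rw [Finset.sum_mul]
  have h1 : ∀ G : SimpleGraph (Fin n), gnpProb n p G * (G.copyCount F : ℝ) *
      (Nat.card (F ≃g F) : ℝ) = gnpProb n p G * (G.labelledCopyCount F : ℝ) := by
    intro G
    rw [labelled_eq]
    push_cast
    ring
  rw [Finset.sum_congr rfl (fun G _ => h1 G), sum_gnpProb p (fun G => (G.labelledCopyCount F : ℝ))]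
  have h2 : ∀ S : Finset (Edge n), ((graphOf S).labelledCopyCount F : ℝ) =
      ∑ ψ : W ↪ Fin n, if edges (F.map ψ) ⊆ S then (1 : ℝ) else 0 := by
    intro S
    rw [labelled_eq_card, Finset.card_filter]
    push_cast
    rfl
  simp only [h2]
  have h3 : ex (X := Edge n) p (fun S => ∑ ψ : W ↪ Fin n,
      if edges (F.map ψ) ⊆ S then (1 : ℝ) else 0) =
      ∑ ψ : W ↪ Fin n, ex p (fun S => if edges (F.map ψ) ⊆ S then (1 : ℝ) else 0) := by
    unfold ex
    rw [Finset.sum_comm]
    apply Finset.sum_congr rfl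
    intro S _
    rw [Finset.mul_sum]
  rw [h3]
  simp only [ex_superset, card_edges_map]
  rw [Finset.sum_const, Finset.card_univ, nsmul_eq_mul]

theorem aut_pos {W : Type*} [Finite W] (F : SimpleGraph W) : 0 < Nat.card (F ≃g F) := by
  have : Finite (F ≃g F) := Finite.of_injective (fun e : F ≃g F => (e : W → W))
    (fun a b h => by ext x; exact congrFun h x)
  have : Nonempty (F ≃g F) := ⟨SimpleGraph.Iso.refl⟩
  exact Nat.card_pos

end Vale.Agent.P064
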