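import Vale.Agent.Lib.P064.Defs

namespace Vale.Agent.P064

open Finset

variable {X : Type*} [Fintype X] [DecidableEq X]

omit [DecidableEq X] in
theorem ex_one (p : ℝ) : ex (X := X) p (fun _ => 1) = 1 := by
  unfold ex
  simp only [mul_one]
  rw [← Finset.powerset_univ, ← Finset.card_univ, Finset.sum_pow_mul_eq_add_pow]
  simp

omit [DecidableEq X] in
theorem ex_mono {p : ℝ} (h0 : 0 ≤ p) (h1 : p ≤ 1) {f g : Finset X → ℝ} (h : ∀ W, f W ≤ g W) :
    ex p f ≤ ex p g := by
  unfold ex
  apply Finset.sum_le_sum
  intro W _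
  apply mul_le_mul_of_nonneg_left (h W)
  have : 0 ≤ 1 - p := by linarith
  positivity

theorem sum_superset (p : ℝ) (S : Finset X) :
    ∑ W ∈ (Finset.univ : Finset (Finset X)).filter (fun W => S ⊆ W),
      p ^ W.card * (1 - p) ^ (Fintype.card X - W.card) = p ^ S.card := by
  have h1 : ∑ W ∈ (Finset.univ : Finset (Finset X)).filter (fun W => S ⊆ W),
      p ^ W.card * (1 - p) ^ (Fintype.card X - W.card) =
      ∑ T ∈ Sᶜ.powerset, p ^ S.card * (p ^ T.card * (1 - p) ^ (Sᶜ.card - T.card)) := by
    apply Finset.sum_bij' (fun W _ => W \ S) (fun T _ => S ∪ T)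
    · intro W hW
      simp only [mem_filter, mem_univ, true_and] at hW
      rw [Finset.mem_powerset]
      intro x hx
      simp only [mem_sdiff] at hx
      simpa using hx.2
    · intro T hT
      simp
    · intro W hW
      simp only [mem_filter, mem_univ, true_and] at hW
      exact Finset.union_sdiff_of_subset hW
    · intro T hT
      rw [Finset.mem_powerset] at hT
      ext x
      simp only [mem_sdiff, mem_union]
      constructor
      · rintro ⟨h | h, h'⟩
        · exact absurd h h'
        · exact h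
      · intro h
        exact ⟨Or.inr h, by simpa using hT h⟩
    · intro W hW
      simp only [mem_filter, mem_univ, true_and] at hW
      have h2 : W.card = S.card + (W \ S).card := by
        rw [Finset.card_sdiff_of_subset hW]
        have := Finset.card_le_card hW
        omega
      have h3 : Fintype.card X - W.card = Sᶜ.card - (W \ S).card := by
        rw [Finset.card_compl]
        omega
      rw [h3, ← mul_assoc, ← pow_add, ← h2]
  rw [h1, ← Finset.mul_sum, Finset.sum_pow_mul_eq_add_pow]
  simp

theorem ex_superset (p : ℝ) (S : Finset X) :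
    ex p (fun W => if S ⊆ W then 1 else 0) = p ^ S.card := by
  unfold ex
  simp only [mul_ite, mul_one, mul_zero]
  rw [← Finset.sum_filter]
  exact sum_superset p S

theorem sum_union_fiber (p : ℝ) (W₁ Z : Finset X) (h : W₁ ⊆ Z) :
    ∑ W₂ ∈ (Finset.univ : Finset (Finset X)).filter (fun W₂ => W₁ ∪ W₂ = Z),
      p ^ W₂.card * (1 - p) ^ (Fintype.card X - W₂.card) =
      p ^ (Z.card - W₁.card) * (1 - p) ^ (Fintype.card X - Z.card) := by
  have hZ : Z.card ≤ Fintype.card X := Finset.card_le_univ _
  have hWZ := Finset.card_le_card h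
  have h1 : ∑ W₂ ∈ (Finset.univ : Finset (Finset X)).filter (fun W₂ => W₁ ∪ W₂ = Z),
      p ^ W₂.card * (1 - p) ^ (Fintype.card X - W₂.card) =
      ∑ T ∈ W₁.powerset, (p ^ (Z.card - W₁.card) * (1 - p) ^ (Fintype.card X - Z.card)) *
        (p ^ T.card * (1 - p) ^ (W₁.card - T.card)) := by
    apply Finset.sum_bij' (fun W₂ _ => W₂ ∩ W₁) (fun T _ => (Z \ W₁) ∪ T)
    · intro W hW
      rw [Finset.mem_powerset]
      exact Finset.inter_subset_right
    · intro T hT
      rw [Finset.mem_powerset] at hT
      simp only [mem_filter, mem_univ, true_and]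
      ext x
      have hh := @h x
      have hh' := @hT x
      simp only [mem_union, mem_sdiff]
      tauto
    · intro W hW
      simp only [mem_filter, mem_univ, true_and] at hW
      subst hW
      ext x
      simp only [mem_union, mem_sdiff, mem_inter]
      tauto
    · intro T hT
      rw [Finset.mem_powerset] at hT
      ext x
      have hh' := @hT x
      simp only [mem_union, mem_sdiff, mem_inter]
      tauto
    · intro W hW
      simp only [mem_filter, mem_univ, true_and] at hW
      have h2 : W.card = (Z.card - W₁.card) + (W ∩ W₁).card := by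
        have h3 : Z \ W₁ = W \ W₁ := by
          subst hW
          ext x
          simp only [mem_union, mem_sdiff]
          tauto
        rw [← Finset.card_sdiff_of_subset h, h3]
        exact (Finset.card_sdiff_add_card_inter W W₁).symm
      have h4 : (W ∩ W₁).card ≤ W₁.card := Finset.card_le_card Finset.inter_subset_right
      have h3 : Fintype.card X - W.card =
          (Fintype.card X - Z.card) + (W₁.card - (W ∩ W₁).card) := by
        omega
      rw [h3, h2, pow_add, pow_add]
      ring
  rw [h1, ← Finset.mul_sum, Finset.sum_pow_mul_eq_add_pow]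
  simp

theorem ex_union (p₁ p₂ : ℝ) (f : Finset X → ℝ) :
    ex p₁ (fun W₁ => ex p₂ (fun W₂ => f (W₁ ∪ W₂))) = ex (1 - (1 - p₁) * (1 - p₂)) f := by
  have hcoef : ∀ Z : Finset X, ∑ W₁ ∈ Z.powerset,
      (p₁ ^ W₁.card * (1 - p₁) ^ (Fintype.card X - W₁.card)) *
      (p₂ ^ (Z.card - W₁.card) * (1 - p₂) ^ (Fintype.card X - Z.card)) =
      (1 - (1 - p₁) * (1 - p₂)) ^ Z.card *
        (1 - (1 - (1 - p₁) * (1 - p₂))) ^ (Fintype.card X - Z.card) := by
    intro Z
    have hZ : Z.card ≤ Fintype.card X := Finset.card_le_univ _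
    have h1 : ∀ W₁ ∈ Z.powerset, (p₁ ^ W₁.card * (1 - p₁) ^ (Fintype.card X - W₁.card)) *
      (p₂ ^ (Z.card - W₁.card) * (1 - p₂) ^ (Fintype.card X - Z.card)) =
      ((1 - p₁) * (1 - p₂)) ^ (Fintype.card X - Z.card) *
        (p₁ ^ W₁.card * ((1 - p₁) * p₂) ^ (Z.card - W₁.card)) := by
      intro W hW
      rw [Finset.mem_powerset] at hW
      have hWZ := Finset.card_le_card hW
      have h2 : Fintype.card X - W.card = (Fintype.card X - Z.card) + (Z.card - W.card) := by
        omega
      rw [h2, pow_add, mul_pow, mul_pow]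
      ring
    rw [Finset.sum_congr rfl h1, ← Finset.mul_sum, Finset.sum_pow_mul_eq_add_pow]
    rw [mul_comm]
    congr 1
    · congr 1
      ring
    · congr 1
      ring
  have h1 : ∀ W₁ : Finset X, ex p₂ (fun W₂ => f (W₁ ∪ W₂)) =
      ∑ Z : Finset X, if W₁ ⊆ Z then
        (p₂ ^ (Z.card - W₁.card) * (1 - p₂) ^ (Fintype.card X - Z.card)) * f Z else 0 := by
    intro W₁
    unfold ex
    rw [← Finset.sum_fiberwise (s := (Finset.univ : Finset (Finset X)))
      (g := fun W₂ => W₁ ∪ W₂)]
    apply Finset.sum_congr rfl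
    intro Z _
    split_ifs with h
    · rw [← sum_union_fiber p₂ W₁ Z h, Finset.sum_mul]
      apply Finset.sum_congr rfl
      intro W₂ hW₂
      beta_reduce
      rw [(Finset.mem_filter.1 hW₂).2]
    · apply Finset.sum_eq_zero
      intro W₂ hW₂
      exfalso
      apply h
      rw [← (Finset.mem_filter.1 hW₂).2]
      exact Finset.subset_union_left
  have h2 : ex p₁ (fun W₁ => ex p₂ (fun W₂ => f (W₁ ∪ W₂))) =
      ∑ W₁ : Finset X, ∑ Z : Finset X, if W₁ ⊆ Z then
        (p₁ ^ W₁.card * (1 - p₁) ^ (Fintype.card X - W₁.card)) *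
        (p₂ ^ (Z.card - W₁.card) * (1 - p₂) ^ (Fintype.card X - Z.card)) * f Z else 0 := by
    show ∑ W₁ : Finset X, p₁ ^ W₁.card * (1 - p₁) ^ (Fintype.card X - W₁.card) *
      (ex p₂ fun W₂ => f (W₁ ∪ W₂)) = _
    apply Finset.sum_congr rfl
    intro W₁ _
    rw [h1 W₁, Finset.mul_sum]
    apply Finset.sum_congr rfl
    intro Z _
    split_ifs
    · ring
    · ring
  rw [h2, Finset.sum_comm]
  unfold ex
  apply Finset.sum_congr rfl
  intro Z _
  rw [← Finset.sum_filter, ← hcoef Z, Finset.sum_mul]
  apply Finset.sum_congr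
  · ext W
    simp
  · intro W _
    rfl

end Vale.Agent.P064
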