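import Vale.Agent.Lib.P064.Gnp

namespace Vale.Agent.P064

open Finset SimpleGraph
open scoped Pointwise

theorem graphOf_adj_smul {n : ℕ} (g : Equiv.Perm (Fin n)) (S : Finset (Edge n)) (a b : Fin n) :
    (graphOf (g • S)).Adj (g a) (g b) ↔ (graphOf S).Adj a b := by
  constructor
  · rintro ⟨e, he, h⟩
    obtain ⟨e', he', rfl⟩ := Finset.mem_smul_finset.1 he
    refine ⟨e', he', ?_⟩
    rw [edge_smul_val, ← Sym2.map_mk] at h
    exact Sym2.map.injective g.injective h
  · rintro ⟨e, he, h⟩
    refine ⟨g • e, Finset.smul_mem_smul_finset he, ?_⟩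
    rw [edge_smul_val, h, Sym2.map_mk]

theorem graphOf_edges_map_adj {n : ℕ} {W : Type*} (F : SimpleGraph W) (φ : W ↪ Fin n)
    (a b : W) : (graphOf (edges (F.map φ))).Adj (φ a) (φ b) ↔ F.Adj a b := by
  rw [graphOf_edges]
  rw [SimpleGraph.map_adj]
  constructor
  · rintro ⟨u, v, huv, h1, h2⟩
    rwa [φ.injective h1, φ.injective h2] at huv
  · intro h
    exact ⟨a, b, h, rfl, rfl⟩

theorem smul_edges_map_subset {n : ℕ} {W : Type*} (F : SimpleGraph W) (φ ψ : W ↪ Fin n)
    (g : Equiv.Perm (Fin n)) (hg : ∀ a, g (φ a) = ψ a) (S : Finset (Edge n))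
    (h : ∀ a b, F.Adj a b → (graphOf S).Adj (ψ a) (ψ b)) :
    g • edges (F.map φ) ⊆ S := by
  intro e he
  obtain ⟨e', he', rfl⟩ := Finset.mem_smul_finset.1 he
  rw [mem_edges] at he'
  rw [← mem_edgeSet_graphOf, edge_smul_val]
  obtain ⟨e', h'⟩ := e'
  induction e' using Sym2.ind with
  | _ a b =>
    have h1 : (F.map φ).Adj a b := he'
    rw [SimpleGraph.map_adj] at h1
    obtain ⟨u, v, huv, rfl, rfl⟩ := h1
    show (graphOf S).Adj (g (φ u)) (g (φ v))
    rw [hg, hg]
    exact h u v huv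

/-- the size of a fiber of the restriction map `Perm (Fin n) → (W ↪ Fin n)` -/
noncomputable def fib {n : ℕ} {W : Type*} (φ : W ↪ Fin n) : ℕ := by
  classical
  exact (Finset.univ.filter (fun g : Equiv.Perm (Fin n) => ∀ a, g (φ a) = φ a)).card

theorem fib_mul {n : ℕ} {W : Type*} [Fintype W] [DecidableEq W] (φ : W ↪ Fin n) :
    fib φ * Fintype.card (W ↪ Fin n) = n.factorial := by
  have h := perm_fiber φ φ
  unfold fib
  rw [← h]
  congr 2
  ext g
  simp only [mem_filter]

theorem fib_eq {n : ℕ} {W : Type*} [Fintype W] [DecidableEq W] (φ ψ : W ↪ Fin n) :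
    (Finset.univ.filter (fun g : Equiv.Perm (Fin n) => ∀ a, g (φ a) = ψ a)).card = fib φ := by
  have h := perm_fiber φ ψ
  have h2 := fib_mul φ
  have h3 : 0 < Fintype.card (W ↪ Fin n) := Fintype.card_pos_iff.2 ⟨φ⟩
  rw [← h2] at h
  exact Nat.eq_of_mul_eq_mul_right h3 h

theorem fib_pos {n : ℕ} {W : Type*} [Fintype W] [DecidableEq W] (φ : W ↪ Fin n) : 0 < fib φ := by
  have h := fib_mul φ
  have := n.factorial_pos
  rw [← h] at this
  exact Nat.pos_of_mul_pos_right this

/-- The subgraph of `H` with edge set corresponding to `S`, without isolated vertices. -/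
def subOf {n : ℕ} {V : Type*} (H : SimpleGraph V) (φ : V ↪ Fin n) (S : Finset (Edge n)) :
    H.Subgraph where
  verts := {v | ∃ w, H.Adj v w ∧ (graphOf S).Adj (φ v) (φ w)}
  Adj v w := H.Adj v w ∧ (graphOf S).Adj (φ v) (φ w)
  adj_sub h := h.1
  edge_vert {_ w} h := ⟨w, h⟩
  symm := ⟨fun _ _ h => ⟨h.1.symm, h.2.symm⟩⟩

/-- the embedding of a subgraph -/
def subEmb {n : ℕ} {V : Type*} {H : SimpleGraph V} (φ : V ↪ Fin n) (F : H.Subgraph) :
    F.verts ↪ Fin n := (Function.Embedding.subtype _).trans φ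

theorem subEmb_apply {n : ℕ} {V : Type*} {H : SimpleGraph V} (φ : V ↪ Fin n) (F : H.Subgraph)
    (v : F.verts) : subEmb φ F v = φ v.1 := rfl

theorem edges_subOf {n : ℕ} {V : Type*} (H : SimpleGraph V) (φ : V ↪ Fin n) (S : Finset (Edge n))
    (hS : S ⊆ edges (H.map φ)) :
    edges ((subOf H φ S).coe.map (subEmb φ (subOf H φ S))) = S := by
  apply Finset.Subset.antisymm
  · rw [edges_subset_iff]
    intro a b hab
    exact hab.2
  · intro e he
    have he' := hS he
    rw [mem_edges] at he' ⊢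
    obtain ⟨e, hd⟩ := e
    induction e using Sym2.ind with
    | _ a b =>
      have h1 : (H.map φ).Adj a b := he'
      rw [SimpleGraph.map_adj] at h1
      obtain ⟨u, v, huv, rfl, rfl⟩ := h1
      show ((subOf H φ S).coe.map (subEmb φ (subOf H φ S))).Adj (φ u) (φ v)
      rw [SimpleGraph.map_adj]
      have h2 : (graphOf S).Adj (φ u) (φ v) := ⟨_, he, rfl⟩
      exact ⟨⟨u, ⟨v, huv, h2⟩⟩, ⟨v, ⟨u, huv.symm, h2.symm⟩⟩, ⟨huv, h2⟩, rfl, rfl⟩

/-- (A): the stabilizer bound. -/
theorem stab_le {n : ℕ} {V : Type*} [Fintype V] (H : SimpleGraph V) (φ : V ↪ Fin n) (q : ℝ)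
    (hq : ∀ F : H.Subgraph, 1 / 2 ≤ expCopies n q F.coe) (S : Finset (Edge n))
    (hS : S ⊆ edges (H.map φ)) :
    ((Finset.univ.filter (fun g : Equiv.Perm (Fin n) => g • S = S)).card : ℝ) ≤
      2 * Fintype.card (Equiv.Perm (Fin n)) * q ^ S.card := by
  classical
  set F := subOf H φ S with hF
  set ψ := subEmb φ F with hψ
  have hE : edges (F.coe.map ψ) = S := edges_subOf H φ S hS
  have hcard : F.coe.edgeSet.ncard = S.card := by
    rw [← card_edges_map F.coe ψ, hE]
  have hexp := expCopies_mul_aut (n := n) q F.coe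
  rw [hcard] at hexp
  have haut : 0 < Nat.card (F.coe ≃g F.coe) := aut_pos _
  have hautR : (0 : ℝ) < Nat.card (F.coe ≃g F.coe) := by exact_mod_cast haut
  have : Fintype (F.coe ≃g F.coe) := Fintype.ofInjective
    (fun e : F.coe ≃g F.coe => (e : F.verts → F.verts)) (fun a b h => by ext x; exact congrArg _ (congrFun h x))
  -- the stabilizer is covered by the automorphisms
  have hcover : (Finset.univ.filter (fun g : Equiv.Perm (Fin n) => g • S = S)) ⊆
      (Finset.univ : Finset (F.coe ≃g F.coe)).biUnion (fun e =>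
        Finset.univ.filter (fun g : Equiv.Perm (Fin n) =>
          ∀ a, g (ψ a) = (e.toEmbedding.toEmbedding.trans ψ) a)) := by
    intro g hg
    simp only [mem_filter, mem_univ, true_and] at hg
    simp only [mem_biUnion, mem_filter, mem_univ, true_and]
    have hadj : ∀ a b : Fin n, (graphOf S).Adj (g a) (g b) ↔ (graphOf S).Adj a b := by
      intro a b
      conv_lhs => rw [← hg]
      exact graphOf_adj_smul g S a b
    have hFadj : ∀ a b : F.verts, F.coe.Adj a b ↔ (graphOf S).Adj (ψ a) (ψ b) := by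
      intro a b
      rw [← graphOf_edges_map_adj F.coe ψ a b, hE]
    have hex : ∀ a : F.verts, ∃ a' : F.verts, ψ a' = g (ψ a) := by
      intro a
      obtain ⟨w, hw, hw2⟩ := a.2
      have h1 : (graphOf S).Adj (g (φ a.1)) (g (φ w)) := (hadj _ _).2 hw2
      rw [← hE, graphOf_edges, SimpleGraph.map_adj] at h1
      obtain ⟨u, v, _, h2, _⟩ := h1
      exact ⟨u, h2⟩
    choose θ hθ using hex
    have hinj : Function.Injective θ := by
      intro a b hab
      apply ψ.injective
      apply g.injective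
      rw [← hθ a, ← hθ b, hab]
    have hbij : Function.Bijective θ := Finite.injective_iff_bijective.1 hinj
    refine ⟨⟨Equiv.ofBijective θ hbij, ?_⟩, ?_⟩
    · intro a b
      show F.coe.Adj (θ a) (θ b) ↔ F.coe.Adj a b
      rw [hFadj, hFadj, hθ, hθ, hadj]
    · intro a
      exact (hθ a).symm
  have h1 : (Finset.univ.filter (fun g : Equiv.Perm (Fin n) => g • S = S)).card ≤
      Nat.card (F.coe ≃g F.coe) * fib ψ := by
    refine (Finset.card_le_card hcover).trans ?_
    refine Finset.card_biUnion_le.trans ?_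
    rw [Finset.sum_congr rfl (fun e _ => fib_eq ψ (e.toEmbedding.toEmbedding.trans ψ)),
      Finset.sum_const, Finset.card_univ, smul_eq_mul, Nat.card_eq_fintype_card]
  have h2 : ((Finset.univ.filter (fun g : Equiv.Perm (Fin n) => g • S = S)).card : ℝ) ≤
      Nat.card (F.coe ≃g F.coe) * fib ψ := by exact_mod_cast h1
  have h3 : (Nat.card (F.coe ≃g F.coe) : ℝ) ≤
      2 * (Fintype.card (F.verts ↪ Fin n) * q ^ S.card) := by
    rw [← hexp]
    nlinarith [hq F, mul_le_mul_of_nonneg_right (hq F) hautR.le]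
  have h4 : (fib ψ : ℝ) * Fintype.card (F.verts ↪ Fin n) = Fintype.card (Equiv.Perm (Fin n)) := by
    rw [Fintype.card_perm, Fintype.card_fin]
    exact_mod_cast fib_mul ψ
  calc _ ≤ (Nat.card (F.coe ≃g F.coe) : ℝ) * fib ψ := h2
    _ ≤ 2 * (Fintype.card (F.verts ↪ Fin n) * q ^ S.card) * fib ψ :=
      mul_le_mul_of_nonneg_right h3 (Nat.cast_nonneg _)
    _ = 2 * Fintype.card (Equiv.Perm (Fin n)) * q ^ S.card := by
      rw [← h4]; ring

/-- spread implies the bound on the number of copies -/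
theorem copyCount_le {n : ℕ} {V : Type*} [Fintype V] (H : SimpleGraph V) (φ : V ↪ Fin n) (p : ℝ)
    (hp : ∀ S : Finset (Edge n), (aCount (Equiv.Perm (Fin n)) (edges (H.map φ)) S : ℝ) ≤
      Fintype.card (Equiv.Perm (Fin n)) * p ^ S.card) (F : H.Subgraph) :
    (H.copyCount F.coe : ℝ) ≤ expCopies n p F.coe := by
  classical
  set ψ := subEmb φ F with hψ
  set S := edges (F.coe.map ψ) with hS
  have hcard : F.coe.edgeSet.ncard = S.card := (card_edges_map F.coe ψ).symm
  have hexp := expCopies_mul_aut (n := n) p F.coe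
  rw [hcard] at hexp
  have haut : 0 < Nat.card (F.coe ≃g F.coe) := aut_pos _
  have hautR : (0 : ℝ) < Nat.card (F.coe ≃g F.coe) := by exact_mod_cast haut
  have hfin : Finite (Copy F.coe H) := Finite.of_injective (fun f => (f : F.verts → V))
    (fun a b h => by ext x; exact congrFun h x)
  have := Fintype.ofFinite (Copy F.coe H)
  -- disjoint union
  have hsub : (Finset.univ : Finset (Copy F.coe H)).biUnion (fun f =>
        Finset.univ.filter (fun g : Equiv.Perm (Fin n) =>
          ∀ a, g (ψ a) = (f.toEmbedding.trans φ) a)) ⊆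
      (Finset.univ.filter (fun g : Equiv.Perm (Fin n) => g • S ⊆ edges (H.map φ))) := by
    intro g hg
    simp only [mem_biUnion, mem_filter, mem_univ, true_and] at hg ⊢
    obtain ⟨f, hf⟩ := hg
    apply smul_edges_map_subset F.coe ψ (f.toEmbedding.trans φ) g hf
    intro a b hab
    show (graphOf (edges (H.map φ))).Adj (φ (f a)) (φ (f b))
    rw [graphOf_edges_map_adj]
    exact f.toHom.map_adj hab
  have hdisj : Set.PairwiseDisjoint ((Finset.univ : Finset (Copy F.coe H)) : Set (Copy F.coe H))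
      (fun f : Copy F.coe H =>
        Finset.univ.filter (fun g : Equiv.Perm (Fin n) =>
          ∀ a, g (ψ a) = (f.toEmbedding.trans φ) a)) := by
    intro f _ f' _ hff'
    rw [Function.onFun, Finset.disjoint_left]
    intro g hg hg'
    simp only [mem_filter, mem_univ, true_and] at hg hg'
    apply hff'
    ext a
    apply φ.injective
    have h1 := hg a
    rw [hg' a] at h1
    exact h1.symm
  have h1 : Nat.card (Copy F.coe H) * fib ψ ≤
      aCount (Equiv.Perm (Fin n)) (edges (H.map φ)) S := by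
    unfold aCount
    refine le_trans ?_ (Finset.card_le_card hsub)
    rw [Finset.card_biUnion hdisj,
      Finset.sum_congr rfl (fun f _ => fib_eq ψ (f.toEmbedding.trans φ)),
      Finset.sum_const, Finset.card_univ, smul_eq_mul, Nat.card_eq_fintype_card]
  rw [← labelled_eq_natCard, labelled_eq] at h1
  have h2 : ((H.copyCount F.coe : ℝ) * Nat.card (F.coe ≃g F.coe)) * fib ψ ≤
      Fintype.card (Equiv.Perm (Fin n)) * p ^ S.card := by
    refine le_trans ?_ (hp S)
    exact_mod_cast h1
  have h4 : (fib ψ : ℝ) * Fintype.card (F.verts ↪ Fin n) = Fintype.card (Equiv.Perm (Fin n)) := by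
    rw [Fintype.card_perm, Fintype.card_fin]
    exact_mod_cast fib_mul ψ
  have h5 : (0 : ℝ) < fib ψ := by exact_mod_cast fib_pos ψ
  have h6 : ((H.copyCount F.coe : ℝ) * Nat.card (F.coe ≃g F.coe)) * fib ψ ≤
      (expCopies n p F.coe * Nat.card (F.coe ≃g F.coe)) * fib ψ := by
    rw [hexp]
    calc _ ≤ _ := h2
      _ = _ := by rw [← h4]; ring
  exact le_of_mul_le_mul_right (le_of_mul_le_mul_right h6 h5) hautR

end Vale.Agent.P064
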